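import Crest.Agent.Helper88.S0010.Lift

/-!
# S0010 (row 9): the line lemma in `lift Θ`-form, from the pure-field line lemma

`LLfStatement p L ι c₀` is the statement of the pure-field line lemma (LLf) for an index type `ι`
with base point `c₀` (proved elsewhere).  `line_lift` deduces from it, for a compatible `Θ`, the
line lemma (LL) for the representative map `lift Θ`, in the shape consumed by the assembly (AS):
for `f, g` with `lift Θ f, lift Θ g` `p`-independent there are `0 < m < p`, `P`, `Q` and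
`lam : K → L` (normalised by `lam 0 = 0`, `lam 1 = 1`) with
`lift Θ (f + c) ~ (P + lam c) ^ m`, `lift Θ (g - c) ~ (Q - lam c) ^ m`,
`lift Θ (f + g) ~ (P + Q) ^ m` for all `c ∈ K^p`.
-/

set_option autoImplicit false
set_option linter.unusedSectionVars false

open Crest.NumberTheoryR.MilnorK

namespace Crest.Agent.Helper88.S0010

open Crest.Agent.Helper67.S0010 Crest.Agent.Helper31.S0010

section

variable (p : ℕ) [hp : Fact p.Prime] (L : Type*) [Field L] [CharP L p]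

/-- The pure-field line lemma (LLf) for an index type `ι` with base point `c₀`. -/
def LLfStatement (ι : Type*) (c₀ : ι) : Prop :=
  ∀ (x y : L), PIndep p x y → ∀ (phi gam : ι → L) (h : L),
    phi c₀ = x → gam c₀ = y → h ≠ 0 →
    (∀ c, phi c ∈ pAdj p x ∧ phi c ∉ pPow (L := L) p) →
    (∀ c, gam c ∈ pAdj p y ∧ gam c ∉ pPow (L := L) p) →
    (∀ c, h / phi c ∈ pAdj p (gam c / phi c)) →
    (∀ c c', phi c / phi c' ∈ pPow (L := L) p → c = c') →
    (∀ c c', gam c / gam c' ∈ pPow (L := L) p → c = c') →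
    ∃ m : ℕ, 0 < m ∧ m < p ∧ ∃ (P Q : L) (lam : ι → L),
      P ∈ pAdj p x ∧ P ∉ pPow (L := L) p ∧ Q ∈ pAdj p y ∧ Q ∉ pPow (L := L) p ∧
      Function.Injective lam ∧ (∀ c, lam c ∈ pPow (L := L) p) ∧ lam c₀ = 0 ∧
      (∀ c, PRel p (phi c) ((P + lam c) ^ m)) ∧ (∀ c, PRel p (gam c) ((Q - lam c) ^ m)) ∧
      PRel p h ((P + Q) ^ m)

end

section

variable {p : ℕ} [hp : Fact p.Prime] {F : Type*} [Field F] [CharP F p]

theorem prel_of_div_mem_pPow {a b : F} (ha : a ≠ 0) (hb : b ≠ 0)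
    (h : a / b ∈ pPow (L := F) p) : PRel p a b := by
  obtain ⟨e, he⟩ := (mem_pPow p).1 h
  refine prel_of_eq_mul_pow (e := e) ha ?_
  rw [he]; field_simp

theorem PRel.div_mem_pPow {a b : F} (hb : b ≠ 0) (h : PRel p a b) :
    a / b ∈ pPow (L := F) p := by
  obtain ⟨e, _, rfl⟩ := h
  rw [mul_div_assoc, div_self hb, mul_one]
  exact pow_mem_pPow p e

/-- If `f ∉ F^p` and `f + c ~ f + c'` with `c, c' ∈ F^p` then `c = c'`. -/
theorem eq_of_prel_add {f c c' : F} (hf : f ∉ pPow (L := F) p) (hc : c ∈ pPow (L := F) p)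
    (hc' : c' ∈ pPow (L := F) p) (h : PRel p (f + c) (f + c')) : c = c' := by
  obtain ⟨e, he, h⟩ := h
  have hep : e ^ p ∈ pPow (L := F) p := pow_mem_pPow p e
  by_cases h1 : e ^ p = 1
  · rw [h1, one_mul] at h
    exact add_left_cancel h
  · exfalso
    apply hf
    have h2 : f = (e ^ p * c' - c) / (1 - e ^ p) := by
      have h3 : (1 - e ^ p) ≠ 0 := sub_ne_zero.2 (Ne.symm h1)
      field_simp
      linear_combination h
    rw [h2]
    exact div_mem (sub_mem (mul_mem hep hc') hc) (sub_mem (one_mem _) hep)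

end

section

variable {p : ℕ} [hp : Fact p.Prime] {K L : Type*} [Field K] [Field L] [CharP K p] [CharP L p]
variable (Θ : KOne K p ≃ₗ[ZMod p] KOne L p)

theorem notMem_pPow_of_pIndep_left {f g : K} (hf : f ≠ 0)
    (hind : PIndep p (lift Θ f) (lift Θ g)) : f ∉ pPow (L := K) p :=
  fun h => hind.1 ((lift_mem_pPow_iff Θ hf).2 h)

theorem notMem_pPow_of_pIndep_right {f g : K} (hg : g ≠ 0)
    (hind : PIndep p (lift Θ f) (lift Θ g)) : g ∉ pPow (L := K) p :=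
  fun h => hind.2 (pPow_le_pAdj p _ ((lift_mem_pPow_iff Θ hg).2 h))

/-- For `f, g` with `p`-independent images, `(g - c) / (f + c) ∉ K^p` (`c ∈ K^p`). -/
theorem div_notMem_pPow_of_pIndep (hΘ : IsCompatible Θ) {f g c : K} (hf : f ≠ 0) (hg : g ≠ 0)
    (hind : PIndep p (lift Θ f) (lift Θ g)) (hc : c ∈ pPow (L := K) p) :
    (g - c) / (f + c) ∉ pPow (L := K) p := by
  have hfK := notMem_pPow_of_pIndep_left Θ hf hind
  have hgK := notMem_pPow_of_pIndep_right Θ hg hind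
  have hfc : f + c ∉ pPow (L := K) p := fun h => hfK (by
    have := sub_mem h hc; rwa [add_sub_cancel_right] at this)
  have hgc : g - c ∉ pPow (L := K) p := fun h => hgK (by
    have := add_mem h hc; rwa [sub_add_cancel] at this)
  have hfc0 : f + c ≠ 0 := fun h => hfc (h ▸ zero_mem _)
  have hgc0 : g - c ≠ 0 := fun h => hgc (h ▸ zero_mem _)
  intro hdiv
  have r : PRel p (g - c) (f + c) := prel_of_div_mem_pPow hgc0 hfc0 hdiv
  have r' : PRel p (lift Θ (g - c)) (lift Θ (f + c)) := lift_prel Θ hgc0 r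
  have h1 : lift Θ (g - c) ∈ pAdj p (lift Θ f) :=
    (r'.mem_pAdj_iff _).2 (lift_add_mem_pAdj Θ hΘ hfK hc)
  have h2 : lift Θ (g - c) ∈ pAdj p (lift Θ g) := by
    have := lift_add_mem_pAdj Θ hΘ hgK (neg_mem hc)
    rwa [← sub_eq_add_neg] at this
  have h3 : lift Θ (g - c) ∉ pPow (L := L) p := lift_notMem_pPow Θ hgc
  have h4 : lift Θ g ∈ pAdj p (lift Θ (g - c)) :=
    exchange p (pPow p) (pow_mem_pPow p) h2 h3
  exact hind.2 (adj_le (pPow_le_pAdj p _) h1 h4)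

/-- **The line lemma in `lift Θ`-form**, from the pure-field line lemma (LLf) indexed by `K^p`. -/
theorem line_lift (hΘ : IsCompatible Θ)
    (hLLf : LLfStatement p L (pPow (L := K) p) 0)
    {f g : K} (hf : f ≠ 0) (hg : g ≠ 0) (hind : PIndep p (lift Θ f) (lift Θ g)) :
    ∃ m : ℕ, 0 < m ∧ m < p ∧ ∃ (P Q : L) (lam : K → L),
      P ∈ pAdj p (lift Θ f) ∧ P ∉ pPow (L := L) p ∧
      Q ∈ pAdj p (lift Θ g) ∧ Q ∉ pPow (L := L) p ∧
      (∀ c ∈ pPow (L := K) p, lam c ∈ pPow (L := L) p) ∧ lam 0 = 0 ∧ lam 1 = 1 ∧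
      Set.InjOn lam (pPow (L := K) p : Set K) ∧
      ∀ c ∈ pPow (L := K) p,
        PRel p (lift Θ (f + c)) ((P + lam c) ^ m) ∧
        PRel p (lift Θ (g - c)) ((Q - lam c) ^ m) ∧
        PRel p (lift Θ (f + g)) ((P + Q) ^ m) := by
  classical
  have hfK := notMem_pPow_of_pIndep_left Θ hf hind
  have hgK := notMem_pPow_of_pIndep_right Θ hg hind
  have hfc : ∀ c ∈ pPow (L := K) p, f + c ∉ pPow (L := K) p := fun c hc h => hfK (by
    have := sub_mem h hc; rwa [add_sub_cancel_right] at this)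
  have hgc : ∀ c ∈ pPow (L := K) p, g - c ∉ pPow (L := K) p := fun c hc h => hgK (by
    have := add_mem h hc; rwa [sub_add_cancel] at this)
  have hfc0 : ∀ c ∈ pPow (L := K) p, f + c ≠ 0 := fun c hc h => hfc c hc (h ▸ zero_mem _)
  have hgc0 : ∀ c ∈ pPow (L := K) p, g - c ≠ 0 := fun c hc h => hgc c hc (h ▸ zero_mem _)
  -- `f + g ≠ 0`
  have hfg : f + g ≠ 0 := by
    intro h
    have hg' : g = -f := by linear_combination h
    have r : PRel p g f := ⟨-1, neg_ne_zero.2 one_ne_zero, by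
      rw [neg_one_pow_char K p, hg']; ring⟩
    exact hind.2 (((lift_prel Θ hg r).mem_pAdj_iff _).2 (self_mem_pAdj p _))
  obtain ⟨m, hm0, hmp, P, Q, lam, hP, hP', hQ, hQ', hinj, hlam, hlam0, hphi, hgam, hh⟩ :=
    hLLf (lift Θ f) (lift Θ g) hind
      (fun c : pPow (L := K) p => lift Θ (f + (c : K)))
      (fun c : pPow (L := K) p => lift Θ (g - (c : K)))
      (lift Θ (f + g))
      (by simp) (by simp) (lift_ne_zero Θ hfg)
      (fun c => ⟨lift_add_mem_pAdj Θ hΘ hfK c.2, lift_notMem_pPow Θ (hfc c c.2)⟩)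
      (fun c => ⟨by
          have := lift_add_mem_pAdj Θ hΘ hgK (neg_mem c.2)
          rwa [← sub_eq_add_neg] at this, lift_notMem_pPow Θ (hgc c c.2)⟩)
      (fun c => by
        have h1 := lift_div_mem_pAdj Θ hΘ (a := f + (c : K)) (b := g - (c : K)) (hfc0 c c.2)
          (div_notMem_pPow_of_pIndep Θ hΘ hf hg hind c.2)
        have e : f + (c : K) + (g - (c : K)) = f + g := by ring
        rwa [e] at h1)
      (fun c c' h => by
        have r := prel_of_div_mem_pPow (lift_ne_zero Θ (hfc0 c c.2))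
          (lift_ne_zero Θ (hfc0 c' c'.2)) h
        have r' := (lift_prel_iff Θ (hfc0 c c.2) (hfc0 c' c'.2)).1 r
        exact Subtype.ext (eq_of_prel_add hfK c.2 c'.2 r'))
      (fun c c' h => by
        have r := prel_of_div_mem_pPow (lift_ne_zero Θ (hgc0 c c.2))
          (lift_ne_zero Θ (hgc0 c' c'.2)) h
        have r' := (lift_prel_iff Θ (hgc0 c c.2) (hgc0 c' c'.2)).1 r
        rw [sub_eq_add_neg, sub_eq_add_neg] at r'
        have := eq_of_prel_add hgK (neg_mem c.2) (neg_mem c'.2) r'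
        exact Subtype.ext (neg_injective this))
  -- normalisation `lam 1 = 1`
  set ℓ : L := lam 1 with hℓ
  have hℓ0 : ℓ ≠ 0 := by
    intro h
    have h01 : (1 : pPow (L := K) p) = 0 := hinj (by rw [← hℓ, h, hlam0])
    exact one_ne_zero h01
  have hℓp : ℓ ∈ pPow (L := L) p := hlam 1
  have hℓm : ∀ z : L, PRel p ((ℓ * z) ^ m) (z ^ m) := by
    intro z
    rw [mul_pow]
    exact prel_iff_pPow.2 ⟨ℓ ^ m, pow_mem hℓp m, pow_ne_zero m hℓ0, rfl⟩
  let lam' : K → L := fun c => if hc : c ∈ pPow (L := K) p then lam ⟨c, hc⟩ / ℓ else 0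
  have hlam' : ∀ (c : K) (hc : c ∈ pPow (L := K) p), lam' c = lam ⟨c, hc⟩ / ℓ :=
    fun c hc => dif_pos hc
  refine ⟨m, hm0, hmp, P / ℓ, Q / ℓ, lam', ?_, ?_, ?_, ?_, ?_, ?_, ?_, ?_, ?_⟩
  · exact div_mem hP (pPow_le_pAdj p _ hℓp)
  · intro h
    apply hP'
    have := mul_mem h hℓp
    rwa [div_mul_cancel₀ P hℓ0] at this
  · exact div_mem hQ (pPow_le_pAdj p _ hℓp)
  · intro h
    apply hQ'
    have := mul_mem h hℓp
    rwa [div_mul_cancel₀ Q hℓ0] at this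
  · intro c hc
    rw [hlam' c hc]
    exact div_mem (hlam _) hℓp
  · rw [hlam' 0 (zero_mem _)]
    have : lam ⟨0, zero_mem _⟩ = 0 := hlam0
    rw [this, zero_div]
  · rw [hlam' 1 (one_mem _)]
    exact div_self hℓ0
  · intro c hc c' hc' h
    have hc2 : c ∈ pPow (L := K) p := hc
    have hc2' : c' ∈ pPow (L := K) p := hc'
    rw [hlam' c hc2, hlam' c' hc2'] at h
    have h2 : lam ⟨c, hc2⟩ = lam ⟨c', hc2'⟩ := by
      have := congrArg (· * ℓ) h
      simpa [div_mul_cancel₀ _ hℓ0] using this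
    exact congrArg Subtype.val (hinj h2)
  · intro c hc
    rw [hlam' c hc]
    have e1 : P + lam ⟨c, hc⟩ = ℓ * (P / ℓ + lam ⟨c, hc⟩ / ℓ) := by field_simp
    have e2 : Q - lam ⟨c, hc⟩ = ℓ * (Q / ℓ - lam ⟨c, hc⟩ / ℓ) := by field_simp
    have e3 : P + Q = ℓ * (P / ℓ + Q / ℓ) := by field_simp
    refine ⟨?_, ?_, ?_⟩
    · have := hphi ⟨c, hc⟩
      rw [e1] at this
      exact this.trans (hℓm _)
    · have := hgam ⟨c, hc⟩
      rw [e2] at this
      exact this.trans (hℓm _)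
    · rw [e3] at hh
      exact hh.trans (hℓm _)


/-! ### The same statements in the `Rel a b := ∃ e ∈ pPow p, e ≠ 0 ∧ a = e * b` spelling -/

/-- (T2), `Rel` spelling. -/
theorem lift_mul_rel {u v : K} (hu : u ≠ 0) (hv : v ≠ 0) :
    ∃ e ∈ pPow (L := L) p, e ≠ 0 ∧ lift Θ (u * v) = e * (lift Θ u * lift Θ v) :=
  prel_iff_pPow.1 (lift_mul Θ hu hv)

/-- (T3), `Rel` spelling. -/
theorem lift_rel_iff {u v : K} (hu : u ≠ 0) (hv : v ≠ 0) :
    (∃ e ∈ pPow (L := L) p, e ≠ 0 ∧ lift Θ u = e * lift Θ v) ↔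
      ∃ e ∈ pPow (L := K) p, e ≠ 0 ∧ u = e * v := by
  rw [← prel_iff_pPow, ← prel_iff_pPow]
  exact lift_prel_iff Θ hu hv

/-- (T4), `Rel` spelling. -/
theorem lift_surj_rel {y : L} (hy : y ≠ 0) :
    ∃ g : K, g ≠ 0 ∧ ∃ e ∈ pPow (L := L) p, e ≠ 0 ∧ lift Θ g = e * y := by
  obtain ⟨g, hg, h⟩ := lift_surj Θ hy
  exact ⟨g, hg, prel_iff_pPow.1 h⟩

/-- (BACK), `Rel` spelling. -/
theorem cls_eq_smul_of_lift_rel (α : K →+* L) (m : ℕ)
    (h : ∀ u : K, u ≠ 0 → ∃ e ∈ pPow (L := L) p, e ≠ 0 ∧ lift Θ u = e * α u ^ m) (u : Kˣ) :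
    Θ (cls K p u) = (m : ZMod p) • cls L p (Units.map α.toMonoidHom u) :=
  cls_eq_smul_of_lift Θ α m (fun u hu => prel_iff_pPow.2 (h u hu)) u

omit [CharP K p] [CharP L p] in
/-- (J3) The conclusion (E) from the output of the assembly. -/
theorem exists_cls_eq_smul (α : K →+* L) (m : ℕ) (hm0 : 0 < m) (hmp : m < p)
    (h : ∀ u : K, u ≠ 0 → PRel p (lift Θ u) (α u ^ m)) :
    ∃ a : K →+* L, ∃ c : ZMod p, c ≠ 0 ∧
      ∀ u : Kˣ, Θ (cls K p u) = c • cls L p (Units.map a.toMonoidHom u) := by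
  refine ⟨α, (m : ZMod p), ?_, cls_eq_smul_of_lift Θ α m h⟩
  rw [Ne, ZMod.natCast_eq_zero_iff]
  exact Nat.not_dvd_of_pos_of_lt hm0 hmp

/-- (J3), `Rel` spelling. -/
theorem exists_cls_eq_smul_rel (α : K →+* L) (m : ℕ) (hm0 : 0 < m) (hmp : m < p)
    (h : ∀ u : K, u ≠ 0 → ∃ e ∈ pPow (L := L) p, e ≠ 0 ∧ lift Θ u = e * α u ^ m) :
    ∃ a : K →+* L, ∃ c : ZMod p, c ≠ 0 ∧
      ∀ u : Kˣ, Θ (cls K p u) = c • cls L p (Units.map a.toMonoidHom u) :=
  exists_cls_eq_smul Θ α m hm0 hmp (fun u hu => prel_iff_pPow.2 (h u hu))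

/-- **Joint J1**: the line lemma for `lift Θ` in the coordinator's shape (`Rel` spelling). -/
theorem J1 (hΘ : IsCompatible Θ) (hLLf : LLfStatement p L (pPow (L := K) p) 0)
    (f g : K) (hf : f ≠ 0) (hg : g ≠ 0) (hind : PIndep p (lift Θ f) (lift Θ g)) :
    ∃ m : ℕ, 0 < m ∧ m < p ∧ ∃ (P Q : L) (lam : K → L),
      P ∈ pAdj p (lift Θ f) ∧ P ∉ pPow (L := L) p ∧
      Q ∈ pAdj p (lift Θ g) ∧ Q ∉ pPow (L := L) p ∧
      lam 0 = 0 ∧ lam 1 = 1 ∧ (∀ c ∈ pPow (L := K) p, lam c ∈ pPow (L := L) p) ∧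
      Set.InjOn lam (pPow (L := K) p : Set K) ∧
      ∀ c ∈ pPow (L := K) p,
        (∃ e ∈ pPow (L := L) p, e ≠ 0 ∧ lift Θ (f + c) = e * (P + lam c) ^ m) ∧
        (∃ e ∈ pPow (L := L) p, e ≠ 0 ∧ lift Θ (g - c) = e * (Q - lam c) ^ m) ∧
        (∃ e ∈ pPow (L := L) p, e ≠ 0 ∧ lift Θ (f + g) = e * (P + Q) ^ m) := by
  obtain ⟨m, hm0, hmp, P, Q, lam, hP, hP', hQ, hQ', hlam, h0, h1, hinj, hall⟩ :=
    line_lift Θ hΘ hLLf hf hg hind
  refine ⟨m, hm0, hmp, P, Q, lam, hP, hP', hQ, hQ', h0, h1, hlam, hinj, fun c hc => ?_⟩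
  obtain ⟨r1, r2, r3⟩ := hall c hc
  exact ⟨prel_iff_pPow.1 r1, prel_iff_pPow.1 r2, prel_iff_pPow.1 r3⟩

end

/-! ### Adapters: the announced shapes of the pure-field line lemma imply `LLfStatement` -/

section

variable {p : ℕ} [hp : Fact p.Prime] {L : Type*} [Field L] [CharP L p]

/-- From the reference shape of the pure-field line lemma (conclusion with explicit
non-vanishing and quotients in `L^p`, normalised at a second point `c₁`). -/
theorem llfStatement_of_div_shape {ι : Type*} (c₀ c₁ : ι)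
    (href : ∀ {x y : L}, PIndep p x y → ∀ (φ γ : ι → L) (h : L), h ≠ 0 → φ c₀ = x → γ c₀ = y →
      (∀ c, φ c ∈ pAdj p x) → (∀ c, φ c ∉ pPow (L := L) p) →
      (∀ c, γ c ∈ pAdj p y) → (∀ c, γ c ∉ pPow (L := L) p) →
      (∀ c, h / φ c ∈ pAdj p (γ c / φ c)) →
      (∀ c c', φ c / φ c' ∈ pPow (L := L) p → c = c') →
      (∀ c c', γ c / γ c' ∈ pPow (L := L) p → c = c') →
      ∃ m : ℕ, 0 < m ∧ m < p ∧ ∃ (P Q : L) (lam : ι → L),
        P ∈ pAdj p x ∧ P ∉ pPow (L := L) p ∧ Q ∈ pAdj p y ∧ Q ∉ pPow (L := L) p ∧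
        lam c₀ = 0 ∧ lam c₁ = 1 ∧ (∀ c, lam c ∈ pPow (L := L) p) ∧ Function.Injective lam ∧
        (∀ c, P + lam c ≠ 0 ∧ φ c / (P + lam c) ^ m ∈ pPow (L := L) p) ∧
        (∀ c, Q - lam c ≠ 0 ∧ γ c / (Q - lam c) ^ m ∈ pPow (L := L) p) ∧
        P + Q ≠ 0 ∧ h / (P + Q) ^ m ∈ pPow (L := L) p) :
    LLfStatement p L ι c₀ := by
  intro x y hxy phi gam h h1 h2 hh hphi hgam hJ hi hi'
  obtain ⟨m, hm0, hmp, P, Q, lam, hP, hP', hQ, hQ', hl0, _, hlam, hinj, h3, h4, h5, h6⟩ :=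
    href hxy phi gam h hh h1 h2 (fun c => (hphi c).1) (fun c => (hphi c).2)
      (fun c => (hgam c).1) (fun c => (hgam c).2) hJ hi hi'
  have hne : ∀ {z : L}, z ∉ pPow (L := L) p → z ≠ 0 := fun hz h0 => hz (h0 ▸ zero_mem _)
  exact ⟨m, hm0, hmp, P, Q, lam, hP, hP', hQ, hQ', hinj, hlam, hl0,
    fun c => prel_of_div_mem_pPow (hne (hphi c).2) (pow_ne_zero m (h3 c).1) (h3 c).2,
    fun c => prel_of_div_mem_pPow (hne (hgam c).2) (pow_ne_zero m (h4 c).1) (h4 c).2,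
    prel_of_div_mem_pPow hh (pow_ne_zero m h5) h6⟩

/-- From the `Rel`-shaped conclusion (`φ c = e * (P + lam c) ^ m` with `e ∈ L^p`, `e ≠ 0`). -/
theorem llfStatement_of_rel_shape {ι : Type*} (c₀ c₁ : ι)
    (href : ∀ {x y : L}, PIndep p x y → ∀ (φ γ : ι → L) (h : L), h ≠ 0 →
      (∀ c, φ c ∈ pAdj p x ∧ φ c ∉ pPow (L := L) p) →
      (∀ c, γ c ∈ pAdj p y ∧ γ c ∉ pPow (L := L) p) →
      (∀ c, h / φ c ∈ pAdj p (γ c / φ c)) →
      (∀ c c', φ c / φ c' ∈ pPow (L := L) p → c = c') →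
      (∀ c c', γ c / γ c' ∈ pPow (L := L) p → c = c') →
      ∃ m, 0 < m ∧ m < p ∧ ∃ P ∈ pAdj p x, ∃ Q ∈ pAdj p y,
        P ∉ pPow (L := L) p ∧ Q ∉ pPow (L := L) p ∧
        ∃ lam : ι → L, (∀ c, lam c ∈ pPow (L := L) p) ∧ lam c₀ = 0 ∧ lam c₁ = 1 ∧
          Function.Injective lam ∧
          (∀ c, ∃ e ∈ pPow (L := L) p, e ≠ 0 ∧ φ c = e * (P + lam c) ^ m) ∧
          (∀ c, ∃ e ∈ pPow (L := L) p, e ≠ 0 ∧ γ c = e * (Q - lam c) ^ m) ∧
          ∃ e ∈ pPow (L := L) p, e ≠ 0 ∧ h = e * (P + Q) ^ m) :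
    LLfStatement p L ι c₀ := by
  intro x y hxy phi gam h _ _ hh hphi hgam hJ hi hi'
  obtain ⟨m, hm0, hmp, P, hP, Q, hQ, hP', hQ', lam, hlam, hl0, _, hinj, h3, h4, h5⟩ :=
    href hxy phi gam h hh hphi hgam hJ hi hi'
  exact ⟨m, hm0, hmp, P, Q, lam, hP, hP', hQ, hQ', hinj, hlam, hl0,
    fun c => prel_iff_pPow.2 (h3 c), fun c => prel_iff_pPow.2 (h4 c), prel_iff_pPow.2 h5⟩

end

end Crest.Agent.Helper88.S0010
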