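import Crest.Agent.Helper67.S0010.KOne
import Crest.Agent.Helper31.S0010.Deriv

/-!
# S0010 (row 9): the bridge from `Θ` on `KOne` to a representative map `lift Θ : K → L`

`lift Θ u` is a chosen representative in `L` of the class `Θ [u]` (and `lift Θ 0 = 0`).
All the facts about `Θ`, `cls`, the Steinberg submodule and compatibility that the pure field
part of the proof needs are exported here as statements about `lift Θ`:

* `lift_ne_zero`, `lift_mul`, `lift_prel_iff`, `lift_mem_pPow_iff`, `lift_surj` (T1–T4);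
* `lift_one_add_mem_pAdj` (S0): for compatible `Θ` and `u ∉ K^p`,
  `lift Θ (1 + u) ∈ L^p(lift Θ u)`; consequences `lift_add_mem_pAdj` (S1),
  `lift_div_mem_pAdj` (S2);
* `cls_eq_smul_of_lift` (BACK): from `lift Θ u ~ (α u)^m` to `Θ [u] = m • [α u]`.
-/

set_option autoImplicit false

open Crest.NumberTheoryR.MilnorK
open scoped TensorProduct

namespace Crest.Agent.Helper88.S0010

open Crest.Agent.Helper67.S0010 Crest.Agent.Helper31.S0010

/-! ### The relation "equal up to a non-zero `p`-th power" -/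

section PRel

variable {F : Type*} [Field F] (p : ℕ)

/-- `a = e ^ p * b` for a non-zero `e`, i.e. "`[a] = [b]`". -/
def PRel (a b : F) : Prop := ∃ e : F, e ≠ 0 ∧ a = e ^ p * b

variable {p}

theorem PRel.refl (a : F) : PRel p a a := ⟨1, one_ne_zero, by simp⟩

theorem PRel.of_eq {a b : F} (h : a = b) : PRel p a b := h ▸ PRel.refl a

theorem PRel.symm {a b : F} (h : PRel p a b) : PRel p b a := by
  obtain ⟨e, he, rfl⟩ := h
  exact ⟨e⁻¹, inv_ne_zero he, by rw [inv_pow, inv_mul_cancel_left₀ (pow_ne_zero p he)]⟩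

theorem PRel.trans {a b c : F} (h : PRel p a b) (h' : PRel p b c) : PRel p a c := by
  obtain ⟨e, he, rfl⟩ := h
  obtain ⟨e', he', rfl⟩ := h'
  exact ⟨e * e', mul_ne_zero he he', by rw [mul_pow, mul_assoc]⟩

theorem PRel.mul {a b a' b' : F} (h : PRel p a b) (h' : PRel p a' b') :
    PRel p (a * a') (b * b') := by
  obtain ⟨e, he, rfl⟩ := h
  obtain ⟨e', he', rfl⟩ := h'
  exact ⟨e * e', mul_ne_zero he he', by rw [mul_pow]; ring⟩

theorem PRel.inv {a b : F} (h : PRel p a b) : PRel p a⁻¹ b⁻¹ := by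
  obtain ⟨e, he, rfl⟩ := h
  exact ⟨e⁻¹, inv_ne_zero he, by rw [mul_inv, inv_pow]⟩

theorem PRel.div {a b a' b' : F} (h : PRel p a b) (h' : PRel p a' b') :
    PRel p (a / a') (b / b') := by
  rw [div_eq_mul_inv, div_eq_mul_inv]; exact h.mul h'.inv

theorem PRel.pow {a b : F} (h : PRel p a b) (n : ℕ) : PRel p (a ^ n) (b ^ n) := by
  obtain ⟨e, he, rfl⟩ := h
  exact ⟨e ^ n, pow_ne_zero n he, by rw [mul_pow, ← pow_mul, ← pow_mul, mul_comm p n]⟩

theorem PRel.ne_zero_iff {a b : F} (h : PRel p a b) : a ≠ 0 ↔ b ≠ 0 := by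
  obtain ⟨e, he, rfl⟩ := h
  simp [he]

theorem PRel.ne_zero {a b : F} (h : PRel p a b) (hb : b ≠ 0) : a ≠ 0 := h.ne_zero_iff.2 hb

theorem PRel.ne_zero' {a b : F} (h : PRel p a b) (ha : a ≠ 0) : b ≠ 0 := h.ne_zero_iff.1 ha

theorem prel_pow_mul {e : F} (he : e ≠ 0) (b : F) : PRel p (e ^ p * b) b := ⟨e, he, rfl⟩

theorem prel_mul_pow {e : F} (he : e ≠ 0) (b : F) : PRel p (b * e ^ p) b :=
  ⟨e, he, mul_comm _ _⟩

theorem prel_pow_one {e : F} (he : e ≠ 0) : PRel p (e ^ p) 1 := ⟨e, he, by simp⟩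

variable [hp : Fact p.Prime]

/-- The shape `∃ e, a = b * e ^ p` (no non-vanishing condition) for non-zero `a`. -/
theorem prel_of_eq_mul_pow {a b e : F} (ha : a ≠ 0) (h : a = b * e ^ p) : PRel p a b := by
  refine ⟨e, ?_, by rw [h, mul_comm]⟩
  rintro rfl
  rw [zero_pow hp.out.ne_zero, mul_zero] at h
  exact ha h

theorem cls_mk0_eq_iff_prel {a b : F} (ha : a ≠ 0) (hb : b ≠ 0) :
    cls F p (Units.mk0 a ha) = cls F p (Units.mk0 b hb) ↔ PRel p a b := by
  rw [cls_eq_iff]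
  constructor
  · rintro ⟨e, he⟩
    exact prel_of_eq_mul_pow ha (by simpa using he)
  · rintro ⟨e, _, he⟩
    exact ⟨e, by simpa [mul_comm] using he⟩

variable [CharP F p]

/-- The shape used with the subfield `pPow`: `a = e * b` with `e ∈ F^p`, `e ≠ 0`. -/
theorem prel_iff_pPow {a b : F} :
    PRel p a b ↔ ∃ e ∈ pPow (L := F) p, e ≠ 0 ∧ a = e * b := by
  constructor
  · rintro ⟨e, he, rfl⟩
    exact ⟨e ^ p, pow_mem_pPow p e, pow_ne_zero p he, rfl⟩
  · rintro ⟨e, hep, he, rfl⟩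
    obtain ⟨d, rfl⟩ := (mem_pPow p).1 hep
    exact ⟨d, fun hd => he (by rw [hd, zero_pow hp.out.ne_zero]), rfl⟩

theorem PRel.mem_pPow_iff {a b : F} (h : PRel p a b) :
    a ∈ pPow (L := F) p ↔ b ∈ pPow (L := F) p := by
  obtain ⟨e, he, rfl⟩ := h
  constructor
  · intro h1
    have h2 : (e ^ p)⁻¹ * (e ^ p * b) ∈ pPow (L := F) p :=
      mul_mem (inv_mem (pow_mem_pPow p e)) h1
    rwa [inv_mul_cancel_left₀ (pow_ne_zero p he)] at h2
  · intro h1
    exact mul_mem (pow_mem_pPow p e) h1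

theorem prel_one_iff {a : F} (ha : a ≠ 0) : PRel p a 1 ↔ a ∈ pPow (L := F) p := by
  constructor
  · intro h
    exact h.mem_pPow_iff.2 (one_mem _)
  · intro h
    obtain ⟨d, rfl⟩ := (mem_pPow p).1 h
    exact ⟨d, fun hd => ha (by rw [hd, zero_pow hp.out.ne_zero]), by simp⟩

theorem PRel.mem_pAdj_iff {a b : F} (h : PRel p a b) (x : F) :
    a ∈ pAdj p x ↔ b ∈ pAdj p x := by
  obtain ⟨e, he, rfl⟩ := h
  constructor
  · intro h1
    have h2 : (e ^ p)⁻¹ * (e ^ p * b) ∈ pAdj p x :=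
      mul_mem (inv_mem (pow_mem_pAdj p x e)) h1
    rwa [inv_mul_cancel_left₀ (pow_ne_zero p he)] at h2
  · intro h1
    exact mul_mem (pow_mem_pAdj p x e) h1

theorem PRel.pAdj_eq {a b : F} (h : PRel p a b) : pAdj p a = pAdj p b := by
  apply le_antisymm
  · exact adj_le (pPow_le_pAdj p b) ((h.mem_pAdj_iff b).2 (self_mem_pAdj p b))
  · exact adj_le (pPow_le_pAdj p a) ((h.symm.mem_pAdj_iff a).2 (self_mem_pAdj p a))

end PRel

/-! ### The representative map -/

section Lift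

variable {p : ℕ} [hp : Fact p.Prime] {K L : Type*} [Field K] [Field L]

/-- A chosen representative in `L` of `Θ [u]`; `0` at `u = 0`. -/
noncomputable def lift (Θ : KOne K p ≃ₗ[ZMod p] KOne L p) (u : K) : L := by
  classical
  exact if h : u = 0 then 0 else
    ((Function.surjInv (cls_surjective (F := L) (p := p)) (Θ (cls K p (Units.mk0 u h))) : Lˣ) : L)

variable (Θ : KOne K p ≃ₗ[ZMod p] KOne L p)

@[simp] theorem lift_zero : lift Θ 0 = 0 := by
  classical
  simp [lift]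

theorem lift_ne_zero {u : K} (hu : u ≠ 0) : lift Θ u ≠ 0 := by
  classical
  rw [lift, dif_neg hu]
  exact Units.ne_zero _

theorem lift_eq_zero_iff {u : K} : lift Θ u = 0 ↔ u = 0 :=
  ⟨fun h => by_contra fun hu => lift_ne_zero Θ hu h, fun h => h ▸ lift_zero Θ⟩

/-- The defining property of `lift`. -/
theorem cls_lift {u : K} (hu : u ≠ 0) :
    cls L p (Units.mk0 (lift Θ u) (lift_ne_zero Θ hu)) = Θ (cls K p (Units.mk0 u hu)) := by
  classical
  have h1 : Units.mk0 (lift Θ u) (lift_ne_zero Θ hu)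
      = Function.surjInv (cls_surjective (F := L) (p := p)) (Θ (cls K p (Units.mk0 u hu))) := by
    ext
    simp [lift, dif_neg hu]
  rw [h1]
  exact Function.surjInv_eq _ _

/-- The defining property of `lift`, for units. -/
theorem lift_spec (u : Kˣ) : ∃ v : Lˣ, (v : L) = lift Θ u ∧ Θ (cls K p u) = cls L p v :=
  ⟨Units.mk0 (lift Θ u) (lift_ne_zero Θ u.ne_zero), rfl, by
    rw [cls_lift Θ u.ne_zero, cls_mk0_coe]⟩

/-- (T2) -/
theorem lift_mul {u v : K} (hu : u ≠ 0) (hv : v ≠ 0) :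
    PRel p (lift Θ (u * v)) (lift Θ u * lift Θ v) := by
  have huv : u * v ≠ 0 := mul_ne_zero hu hv
  have h := cls_lift Θ huv
  rw [cls_mk0_mul hu hv, map_add, ← cls_lift Θ hu, ← cls_lift Θ hv,
    ← cls_mk0_mul (lift_ne_zero Θ hu) (lift_ne_zero Θ hv)] at h
  exact (cls_mk0_eq_iff_prel _ _).1 h

/-- (T3) -/
theorem lift_prel_iff {u v : K} (hu : u ≠ 0) (hv : v ≠ 0) :
    PRel p (lift Θ u) (lift Θ v) ↔ PRel p u v := by
  rw [← cls_mk0_eq_iff_prel (lift_ne_zero Θ hu) (lift_ne_zero Θ hv), cls_lift Θ hu,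
    cls_lift Θ hv, Θ.injective.eq_iff, cls_mk0_eq_iff_prel hu hv]

theorem lift_prel {u v : K} (hu : u ≠ 0) (h : PRel p u v) : PRel p (lift Θ u) (lift Θ v) :=
  (lift_prel_iff Θ hu (h.ne_zero' hu)).2 h

/-- (T4) -/
theorem lift_surj {y : L} (hy : y ≠ 0) : ∃ g : K, g ≠ 0 ∧ PRel p (lift Θ g) y := by
  obtain ⟨g, hg⟩ := cls_surjective (F := K) (p := p) (Θ.symm (cls L p (Units.mk0 y hy)))
  refine ⟨(g : K), g.ne_zero, ?_⟩
  rw [← cls_mk0_eq_iff_prel (lift_ne_zero Θ g.ne_zero) hy, cls_lift Θ g.ne_zero, cls_mk0_coe, hg,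
    LinearEquiv.apply_symm_apply]

theorem lift_inv {u : K} (hu : u ≠ 0) : PRel p (lift Θ u⁻¹) (lift Θ u)⁻¹ := by
  have h := cls_lift Θ (inv_ne_zero hu)
  rw [cls_mk0_inv hu, map_neg, ← cls_lift Θ hu, ← cls_mk0_inv (lift_ne_zero Θ hu)] at h
  exact (cls_mk0_eq_iff_prel _ _).1 h

theorem lift_div {u v : K} (hu : u ≠ 0) (hv : v ≠ 0) :
    PRel p (lift Θ (u / v)) (lift Θ u / lift Θ v) := by
  rw [div_eq_mul_inv, div_eq_mul_inv]
  exact (lift_mul Θ hu (inv_ne_zero hv)).trans ((PRel.refl _).mul (lift_inv Θ hv))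

theorem lift_one : PRel p (lift Θ 1) 1 := by
  have h := lift_mul Θ (one_ne_zero (α := K)) (one_ne_zero (α := K))
  rw [mul_one] at h
  obtain ⟨e, he, h⟩ := h
  have h0 := lift_ne_zero Θ (one_ne_zero (α := K))
  refine ⟨e⁻¹, inv_ne_zero he, ?_⟩
  have h2 : lift Θ (1 : K) * 1 = lift Θ 1 * (e ^ p * lift Θ 1) := by
    rw [mul_one]; nth_rewrite 1 [h]; ring
  have h3 := mul_left_cancel₀ h0 h2
  rw [inv_pow, mul_one]
  field_simp
  rw [h3]; ring

variable [CharP K p] [CharP L p]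

theorem lift_mem_pPow_iff {u : K} (hu : u ≠ 0) :
    lift Θ u ∈ pPow (L := L) p ↔ u ∈ pPow (L := K) p := by
  rw [← prel_one_iff (lift_ne_zero Θ hu), ← prel_one_iff hu]
  constructor
  · intro h
    exact (lift_prel_iff Θ hu one_ne_zero).1 (h.trans (lift_one Θ).symm)
  · intro h
    exact (lift_prel Θ hu h).trans (lift_one Θ)

theorem lift_notMem_pPow {u : K} (hu : u ∉ pPow (L := K) p) : lift Θ u ∉ pPow (L := L) p := by
  have hu0 : u ≠ 0 := fun h => hu (h ▸ zero_mem _)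
  exact fun h => hu ((lift_mem_pPow_iff Θ hu0).1 h)

/-- (S0) The only place where the Steinberg submodule enters: for a compatible `Θ` and
`u ∉ K^p` we have `lift Θ (1 + u) ∈ L^p(lift Θ u)`. -/
theorem lift_one_add_mem_pAdj (hΘ : IsCompatible Θ) {u : K} (hu : u ∉ pPow (L := K) p) :
    lift Θ (1 + u) ∈ pAdj p (lift Θ u) := by
  have hu0 : u ≠ 0 := fun h => hu (h ▸ zero_mem _)
  have hu1 : 1 + u ≠ 0 := by
    intro h
    apply hu
    have : u = -1 := by linear_combination h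
    rw [this]
    exact neg_mem (one_mem _)
  have hf : -u ≠ 0 := neg_ne_zero.2 hu0
  have hf1 : 1 - -u ≠ 0 := by rwa [sub_neg_eq_add]
  have key := tmul_mem_steinberg (p := p) (-u) hf hf1
  have e1 : cls K p (Units.mk0 (-u) hf) = cls K p (Units.mk0 u hu0) := cls_mk0_neg _
  have e2 : cls K p (Units.mk0 (1 - -u) hf1) = cls K p (Units.mk0 (1 + u) hu1) := by
    congr 1; ext; simp
  rw [e1, e2] at key
  have key2 := isCompatible_tmul_mem hΘ key
  rw [← cls_lift Θ hu0, ← cls_lift Θ hu1] at key2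
  by_contra hnot
  have hind : PIndep p (lift Θ u) (lift Θ (1 + u)) := ⟨lift_notMem_pPow Θ hu, hnot⟩
  obtain ⟨D₁, D₂, h1x, h1y, h2x, h2y⟩ := exists_derivation_pair p hind
  refine tmul_not_mem_steinberg_of_derivation (p := p) D₁ D₂ ?_ key2
  simp only [Units.val_mk0]
  rw [h1x, h1y, h2x, h2y]
  simp

/-- (S1) `lift Θ (f + c) ∈ L^p(lift Θ f)` for `f ∉ K^p`, `c ∈ K^p`. -/
theorem lift_add_mem_pAdj (hΘ : IsCompatible Θ) {f c : K} (hf : f ∉ pPow (L := K) p)
    (hc : c ∈ pPow (L := K) p) : lift Θ (f + c) ∈ pAdj p (lift Θ f) := by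
  have hf0 : f ≠ 0 := fun h => hf (h ▸ zero_mem _)
  by_cases hc0 : c = 0
  · rw [hc0, add_zero]; exact self_mem_pAdj p _
  have hfc : f / c ∉ pPow (L := K) p := by
    intro h
    apply hf
    have := mul_mem h hc
    rwa [div_mul_cancel₀ f hc0] at this
  have hfc0 : f / c ≠ 0 := div_ne_zero hf0 hc0
  have h0 := lift_one_add_mem_pAdj Θ hΘ hfc
  have hsum : f + c ≠ 0 := by
    intro h
    apply hf
    have : f = -c := by linear_combination h
    rw [this]; exact neg_mem hc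
  obtain ⟨d, rfl⟩ := (mem_pPow p).1 hc
  have hd : d ≠ 0 := fun h => hc0 (by rw [h, zero_pow hp.out.ne_zero])
  have r1 : PRel p (f + d ^ p) (1 + f / d ^ p) := ⟨d, hd, by field_simp; ring⟩
  have r2 : PRel p (f / d ^ p) f := ⟨d⁻¹, inv_ne_zero hd, by rw [inv_pow]; ring⟩
  rw [(lift_prel Θ hfc0 r2).pAdj_eq] at h0
  exact ((lift_prel Θ hsum r1).mem_pAdj_iff _).2 h0

/-- (S2) `lift Θ (a + b) / lift Θ a ∈ L^p(lift Θ b / lift Θ a)` when `b / a ∉ K^p`. -/
theorem lift_div_mem_pAdj (hΘ : IsCompatible Θ) {a b : K} (ha : a ≠ 0)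
    (hba : b / a ∉ pPow (L := K) p) :
    lift Θ (a + b) / lift Θ a ∈ pAdj p (lift Θ b / lift Θ a) := by
  have hba0 : b / a ≠ 0 := fun h => hba (h ▸ zero_mem _)
  have hb : b ≠ 0 := fun h => hba0 (by rw [h, zero_div])
  have h0 := lift_one_add_mem_pAdj Θ hΘ hba
  have hsum : 1 + b / a ≠ 0 := by
    intro h
    apply hba
    have : b / a = -1 := by linear_combination h
    rw [this]; exact neg_mem (one_mem _)
  have e1 : (a + b) / a = 1 + b / a := by field_simp
  have hab : a + b ≠ 0 := by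
    intro h
    apply hsum
    rw [← e1, h, zero_div]
  -- `lift (a + b) / lift a ~ lift ((a + b) / a) = lift (1 + b / a)`
  have r1 : PRel p (lift Θ (1 + b / a)) (lift Θ (a + b) / lift Θ a) := by
    rw [← e1]; exact lift_div Θ hab ha
  have r2 : PRel p (lift Θ (b / a)) (lift Θ b / lift Θ a) := lift_div Θ hb ha
  rw [r2.pAdj_eq] at h0
  exact (r1.mem_pAdj_iff _).1 h0

omit [CharP K p] [CharP L p] in
/-- (BACK) From `lift Θ u ~ (α u) ^ m` to `Θ [u] = m • [α u]`. -/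
theorem cls_eq_smul_of_lift (α : K →+* L) (m : ℕ)
    (h : ∀ u : K, u ≠ 0 → PRel p (lift Θ u) (α u ^ m)) (u : Kˣ) :
    Θ (cls K p u) = (m : ZMod p) • cls L p (Units.map α.toMonoidHom u) := by
  have h1 := h u u.ne_zero
  have hα : α (u : K) ≠ 0 := (Units.map α.toMonoidHom u).ne_zero
  have h2 := (cls_mk0_eq_iff_prel (lift_ne_zero Θ u.ne_zero) (pow_ne_zero m hα)).2 h1
  rw [cls_lift Θ u.ne_zero, cls_mk0_coe] at h2
  rw [h2, natCast_smul_cls]
  congr 1
  ext
  simp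

end Lift

end Crest.Agent.Helper88.S0010
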